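import Vale.Agent.P143.Equivariance

/-!
# The free uniform spanning forest is a factor of i.i.d. on every graph
-/

open MeasureTheory Set Filter Topology
open scoped unitInterval ENNReal

universe u

namespace Vale.Agent.Results.P143.FusfFactor

open Vale.Agent.P143

/-- The free uniform spanning forest is a `Γ`-factor of i.i.d. on every Cayley graph of every
finitely generated group, and a graph factor of i.i.d. on every unimodular random graph.
Moreover, one single graph factor produces the free uniform spanning forest of every connected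
locally finite graph. -/
theorem result :
    (∀ (Γ : Type u) [Group Γ] (S : Set Γ), S.Finite → Subgroup.closure S = ⊤ →
      ∃ Φ : (Γ → I) → Set (Sym2 Γ), IsGroupFactor Φ ∧
        IsFUSF (SimpleGraph.mulCayley S) ((iidLabels Γ).map Φ)) ∧
    (∀ μ : Measure (SimpleGraph ℕ × ℕ), IsUnimodular μ →
      ∃ Φ : SimpleGraph ℕ → (ℕ → I) → Set (Sym2 ℕ), IsGraphFactor Φ ∧
        ∀ᵐ p ∂μ, IsFUSF p.1 ((iidLabels ℕ).map (Φ p.1))) ∧
    (∃ Φ : SimpleGraph ℕ → (ℕ → I) → Set (Sym2 ℕ), IsGraphFactor Φ ∧
      ∀ G : SimpleGraph ℕ, G.Connected → (∀ v, (G.neighborSet v).Finite) →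
        IsFUSF G ((iidLabels ℕ).map (Φ G))) := by
  have h3 : ∃ Φ : SimpleGraph ℕ → (ℕ → I) → Set (Sym2 ℕ), IsGraphFactor Φ ∧
      ∀ G : SimpleGraph ℕ, G.Connected → (∀ v, (G.neighborSet v).Finite) →
        IsFUSF G ((iidLabels ℕ).map (Φ G)) := by
    refine ⟨factorMap, ⟨measurable_factorMap, fun G G' φ U => factorMap_map φ U⟩, ?_⟩
    intro G hc hG
    exact isFUSF_factorMap G hc hG
  refine ⟨?_, ?_, h3⟩
  · intro Γ _ S hS hgen
    have hc : (SimpleGraph.mulCayley S).Connected := cayley_connected hgen
    have hlf : ∀ v, ((SimpleGraph.mulCayley S).neighborSet v).Finite :=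
      cayley_locallyFinite hS
    have hcount : Countable Γ := countable_of_connected hc hlf
    refine ⟨factorMap (SimpleGraph.mulCayley S), ⟨?_, ?_⟩, isFUSF_factorMap _ hc hlf⟩
    · exact measurable_factorMap.comp (measurable_const.prodMk measurable_id)
    · intro γ U
      exact factorMap_map (cayleyAut S γ) U
  · intro μ hμ
    obtain ⟨Φ, hΦ, h⟩ := h3
    refine ⟨Φ, hΦ, ?_⟩
    filter_upwards [hμ.connected, hμ.locallyFinite] with p hp1 hp2
    exact h p.1 hp1 hp2

end Vale.Agent.Results.P143.FusfFactor
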